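import Vale.Agent.Lib.P074.Main

open Vale.Agent.Lib.P074 in
/-- For every dimension `d ≥ 2`, no exponent above `1/3` is admissible; in particular `1/2` is
not admissible, and the supremum of the admissible exponents is at most `1/3`. -/
theorem Vale.Agent.Results.P074.AlphaStarAtMostOneThird.result (d : ℕ) (hd : 2 ≤ d) :
    (∀ α : ℝ, 1 / 3 < α → ¬ Admissible d α) ∧
      sSup {α : ℝ | 0 < α ∧ α ≤ 1 ∧ Admissible d α} ≤ 1 / 3 := by
  have h : ∀ α : ℝ, 1 / 3 < α → ¬ Admissible d α := fun α hα => not_admissible hd hα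
  refine ⟨h, Real.sSup_le ?_ (by norm_num)⟩
  rintro α ⟨_, _, hadm⟩
  by_contra hlt
  exact h α (not_le.mp hlt) hadm
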