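import Vale.Agent.Lib.P074.Main
import Vale.Agent.Lib.P074.Part4

open MeasureTheory

open Vale.Agent.Lib.P074 in
/-- For every dimension `d ≥ 2` the supremum of the admissible exponents equals `1/3`, it is
attained, and no larger exponent is admissible. The optimal maps in the definition exist for
every compactly supported target. -/
theorem Vale.Agent.Results.P074.AlphaStarEqualsOneThird.result (d : ℕ) (hd : 2 ≤ d) :
    sSup {α : ℝ | 0 < α ∧ α ≤ 1 ∧ Admissible d α} = 1 / 3 ∧
      IsGreatest {α : ℝ | 0 < α ∧ α ≤ 1 ∧ Admissible d α} (1 / 3) ∧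
      (∀ α : ℝ, 1 / 3 < α → ¬ Admissible d α) ∧
      ∀ (K Y : Set (Eu d)) (μ : Measure (Eu d)), IsCompact K → Convex ℝ K →
        (interior K).Nonempty → IsCompact Y → IsProbabilityMeasure μ → μ Yᶜ = 0 →
        ∃ T : Eu d → Eu d, IsOTMap (unif K) μ T := by
  obtain ⟨n, rfl⟩ : ∃ n, d = n + 1 := ⟨d - 1, by omega⟩
  have hgr : IsGreatest {α : ℝ | 0 < α ∧ α ≤ 1 ∧ Admissible (n + 1) α} (1 / 3) := by
    refine ⟨⟨by norm_num, by norm_num, admissible_one_third n⟩, ?_⟩
    rintro α ⟨_, _, hadm⟩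
    by_contra hlt
    exact not_admissible hd (not_le.mp hlt) hadm
  refine ⟨hgr.csSup_eq, hgr, fun α hα => not_admissible hd hα, ?_⟩
  intro K Y μ hK hKc hKi hY hμ hμY
  exact exists_isOTMap hK hKc hKi hY hμY
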